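import Vale.Agent.P030.H152.Tower
import Vale.Agent.P030.H580.Pompeiu

/-!
# P030, N5: the norm glued from cell frames, and the Cauchy representation at every level
-/

open Matrix MeasureTheory Finset Filter Topology

namespace Vale.Agent.P030.H152

section cell
variable {m : ℕ}

/-- unitriangular matrices (rows = frame vectors) -/
def Unitri (S : Matrix (Fin m) (Fin m) ℂ) : Prop :=
  (∀ b c, c < b → S b c = 0) ∧ ∀ b, S b b = 1

theorem Unitri.det {S : Matrix (Fin m) (Fin m) ℂ} (h : Unitri S) : S.det = 1 := by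
  have h1 : S.BlockTriangular id := fun i j hij => h.1 i j hij
  rw [Matrix.det_of_isUpperTriangular h1]
  exact Finset.prod_eq_one fun i _ => h.2 i

theorem Unitri.isUnit {S : Matrix (Fin m) (Fin m) ℂ} (h : Unitri S) : IsUnit S.det := by
  rw [h.det]; exact isUnit_one

/-- the cell norm of a vector: the maximum of the weighted coordinates -/
noncomputable def cellN (S : Matrix (Fin m) (Fin m) ℂ) (w : Fin m → ℝ) :
    Seminorm ℂ (Fin m → ℂ) :=
  (normSeminorm ℂ (Fin m → ℂ)).comp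
    (Matrix.vecMulLinear (S⁻¹ * diagonal (fun b => ((Real.exp (w b) : ℝ) : ℂ))))

theorem cellN_apply (S : Matrix (Fin m) (Fin m) ℂ) (w : Fin m → ℝ) (v : Fin m → ℂ) :
    cellN S w v = ‖fun b => (v ᵥ* S⁻¹) b * ((Real.exp (w b) : ℝ) : ℂ)‖ := by
  unfold cellN
  rw [Seminorm.comp_apply]
  simp only [coe_normSeminorm, vecMulLinear_apply]
  congr 1
  funext b
  rw [← Matrix.vecMul_vecMul, Matrix.vecMul_diagonal]

theorem coord_le_cellN (S : Matrix (Fin m) (Fin m) ℂ) (w : Fin m → ℝ) (v : Fin m → ℂ)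
    (b : Fin m) : ‖(v ᵥ* S⁻¹) b‖ * Real.exp (w b) ≤ cellN S w v := by
  rw [cellN_apply]
  refine le_trans (le_of_eq ?_) (norm_le_pi_norm _ b)
  rw [norm_mul, Complex.norm_real, Real.norm_of_nonneg (Real.exp_pos _).le]

theorem cellN_le (S : Matrix (Fin m) (Fin m) ℂ) (w : Fin m → ℝ) (v : Fin m → ℂ) {B : ℝ}
    (hB : 0 ≤ B) (h : ∀ b, ‖(v ᵥ* S⁻¹) b‖ * Real.exp (w b) ≤ B) : cellN S w v ≤ B := by
  rw [cellN_apply]
  refine (pi_norm_le_iff_of_nonneg hB).2 fun b => ?_
  rw [norm_mul, Complex.norm_real, Real.norm_of_nonneg (Real.exp_pos _).le]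
  exact h b

theorem coord_lead {S : Matrix (Fin m) (Fin m) ℂ} (h : Unitri S) (v : Fin m → ℂ) (b : Fin m)
    (hv : ∀ c < b, v c = 0) : (v ᵥ* S⁻¹) b = v b := by
  set y := v ᵥ* S⁻¹ with hy
  have hyS : y ᵥ* S = v := by
    rw [hy, Matrix.vecMul_vecMul, Matrix.nonsing_inv_mul _ h.isUnit, Matrix.vecMul_one]
  have hco : ∀ c, v c = ∑ b', y b' * S b' c := by
    intro c
    rw [← hyS]; rfl
  have hy0 : ∀ n : ℕ, ∀ c : Fin m, (c : ℕ) = n → c < b → y c = 0 := by
    intro n
    induction n using Nat.strong_induction_on with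
    | _ n ih =>
      intro c hcn hcb
      have h1 := hco c
      rw [hv c hcb, Finset.sum_eq_single c] at h1
      · rw [h.2, mul_one] at h1; exact h1.symm
      · intro b' _ hb'
        rcases lt_or_gt_of_ne hb' with hlt | hgt
        · rw [ih b' (by rw [← hcn]; exact hlt) b' rfl (hlt.trans hcb), zero_mul]
        · rw [h.1 b' c hgt, mul_zero]
      · intro hc; exact absurd (Finset.mem_univ c) hc
  have h2 := hco b
  rw [Finset.sum_eq_single b] at h2
  · rw [h.2, mul_one] at h2; exact h2.symm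
  · intro b' _ hb'
    rcases lt_or_gt_of_ne hb' with hlt | hgt
    · rw [hy0 b' b' rfl hlt, zero_mul]
    · rw [h.1 b' b hgt, mul_zero]
  · intro hc; exact absurd (Finset.mem_univ b) hc

end cell

/-- cells with holomorphic unitriangular frames, glued by condition (C) -/
structure Cells (m : ℕ) (κ : Type) [Fintype κ] (w : Fin m → ℂ → ℝ) (C : ℝ) where
  O : κ → Set ℂ
  isOpen : ∀ k, IsOpen (O k)
  cover : ∀ z, ∃ k, z ∈ O k
  S : κ → ℂ → Matrix (Fin m) (Fin m) ℂ
  uni : ∀ k, ∀ z ∈ O k, Unitri (S k z)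
  hol : ∀ k b c, DifferentiableOn ℂ (fun z => S k z b c) (O k)
  tr : ∀ k k' z, z ∈ O k → z ∈ O k' → ∀ b c,
    ‖(S k z b ᵥ* (S k' z)⁻¹) c‖ * Real.exp (w c z) ≤ C * Real.exp (w b z)

namespace Cells
variable {m : ℕ} {κ : Type} [Fintype κ] {w : Fin m → ℂ → ℝ} {C : ℝ} (G : Cells m κ w C)

open Classical in
/-- the glued norm -/
noncomputable def N (z : ℂ) : Seminorm ℂ (Fin m → ℂ) :=
  Finset.univ.sup fun k => if z ∈ G.O k then cellN (G.S k z) (fun b => w b z) else 0

theorem cellN_le_N {k : κ} {z : ℂ} (hz : z ∈ G.O k) (v : Fin m → ℂ) :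
    cellN (G.S k z) (fun b => w b z) v ≤ G.N z v := by
  classical
  unfold N
  refine le_trans (le_of_eq ?_) (Seminorm.le_finset_sup_apply (Finset.mem_univ k))
  rw [if_pos hz]

theorem N_le {z : ℂ} {v : Fin m → ℂ} {B : ℝ} (hB : 0 ≤ B)
    (h : ∀ k, z ∈ G.O k → cellN (G.S k z) (fun b => w b z) v ≤ B) : G.N z v ≤ B := by
  classical
  unfold N
  refine Seminorm.finset_sup_apply_le hB fun k _ => ?_
  split_ifs with hk
  · exact h k hk
  · simpa using hB

theorem n1 (z : ℂ) (v : Fin m → ℂ) (b : Fin m) (hv : ∀ c < b, v c = 0) :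
    ‖v b‖ * Real.exp (w b z) ≤ G.N z v := by
  obtain ⟨k, hk⟩ := G.cover z
  refine le_trans ?_ (G.cellN_le_N hk v)
  have h := coord_le_cellN (G.S k z) (fun b => w b z) v b
  rwa [coord_lead (G.uni k z hk) v b hv] at h

include G in
theorem C_nonneg (b : Fin m) : 0 ≤ C := by
  obtain ⟨k, hk⟩ := G.cover 0
  have h := G.tr k k 0 hk hk b b
  have h1 : 0 ≤ C * Real.exp (w b 0) := le_trans (by positivity) h
  exact nonneg_of_mul_nonneg_left h1 (Real.exp_pos _)

theorem N_row {k : κ} {z : ℂ} (hz : z ∈ G.O k) (b : Fin m) :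
    G.N z (G.S k z b) ≤ C * Real.exp (w b z) := by
  have hC := G.C_nonneg b
  refine G.N_le (by positivity) fun k' hk' => ?_
  exact cellN_le _ _ _ (by positivity) fun c => G.tr k k' z hz hk' b c

end Cells

/-- a partition of unity adapted to the finite set `A` -/
structure PU {κ : Type} [Fintype κ] [DecidableEq κ] (O : κ → Set ℂ) (Q : Set ℂ) (k0 : κ)
    (L δ : ℝ) (A : Finset ℂ) where
  θ : κ → ℂ → ℝ
  smooth : ∀ k, ContDiff ℝ 1 (θ k)
  sum_one : ∀ z, ∑ k, θ k z = 1
  supp : ∀ k, tsupport (θ k) ⊆ O k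
  bound : ∀ k z, ‖fderiv ℝ (θ k) z‖ ≤ L
  const_out : ∀ k, ∀ z ∉ Q, fderiv ℝ (θ k) z = 0
  sep : ∀ k, ∀ a ∈ A, ∀ z, ‖z - a‖ < δ → fderiv ℝ (θ k) z = 0
  node : ∀ a ∈ A, ∃ k, ∀ k', θ k' a = if k' = k then 1 else 0
  inf : ∀ᶠ z in cocompact ℂ, ∀ k, θ k z = if k = k0 then 1 else 0

/-- `∂̄` of a real function -/
noncomputable def db (θ : ℂ → ℝ) (z : ℂ) : ℂ :=
  (1 / 2 : ℂ) * (((fderiv ℝ θ z 1 : ℝ) : ℂ) + Complex.I * ((fderiv ℝ θ z Complex.I : ℝ) : ℂ))

theorem norm_db_le (θ : ℂ → ℝ) (z : ℂ) : ‖db θ z‖ ≤ ‖fderiv ℝ θ z‖ := by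
  unfold db
  have h1 : ‖fderiv ℝ θ z 1‖ ≤ ‖fderiv ℝ θ z‖ := by
    simpa using (fderiv ℝ θ z).le_opNorm 1
  have h2 : ‖fderiv ℝ θ z Complex.I‖ ≤ ‖fderiv ℝ θ z‖ := by
    simpa using (fderiv ℝ θ z).le_opNorm Complex.I
  rw [norm_mul]
  have h3 : ‖((fderiv ℝ θ z 1 : ℝ) : ℂ) + Complex.I * ((fderiv ℝ θ z Complex.I : ℝ) : ℂ)‖ ≤
      ‖fderiv ℝ θ z 1‖ + ‖fderiv ℝ θ z Complex.I‖ := by
    refine (norm_add_le _ _).trans ?_
    rw [norm_mul, Complex.norm_I, one_mul, Complex.norm_real, Complex.norm_real]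
  have h4 : ‖(1 / 2 : ℂ)‖ = 1 / 2 := by simp
  rw [h4]
  linarith

section dbarcalc
open Vale.Agent.P030.H580
variable {E : Type*} [NormedAddCommGroup E] [NormedSpace ℂ E]

theorem dbar_smul_holo {θ : ℂ → ℝ} {g : ℂ → E} {z : ℂ} (hθ : DifferentiableAt ℝ θ z)
    (hg : DifferentiableAt ℂ g z) : dbar (fun z => θ z • g z) z = db θ z • g z := by
  have hgR : HasFDerivAt g ((fderiv ℂ g z).restrictScalars ℝ) z :=
    hg.hasFDerivAt.restrictScalars ℝ
  have h : HasFDerivAt (fun z => θ z • g z) _ z := hθ.hasFDerivAt.smul hgR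
  unfold dbar db
  rw [h.fderiv]
  simp only [_root_.add_apply, _root_.smul_apply,
    ContinuousLinearMap.coe_restrictScalars', ContinuousLinearMap.smulRight_apply]
  have h1 : (fderiv ℂ g z) Complex.I = Complex.I • (fderiv ℂ g z) 1 := by
    rw [← map_smul]; simp
  rw [h1]
  simp only [← Complex.coe_smul, smul_add, smul_smul, mul_add, add_smul]
  have hI : Complex.I * Complex.I = -1 := Complex.I_mul_I
  match_scalars
  all_goals first
    | ring1
    | linear_combination (((θ z : ℝ) : ℂ) / 2) * Complex.I_sq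

theorem dbar_zero_of_eventually {φ : ℂ → E} {z : ℂ} (h : φ =ᶠ[𝓝 z] fun _ => 0) :
    dbar φ z = 0 := by
  unfold dbar
  rw [h.fderiv_eq]
  simp

end dbarcalc

section main
open Vale.Agent.P030.H580
variable {m : ℕ} {κ : Type} [Fintype κ] [DecidableEq κ] {w : Fin m → ℂ → ℝ} {C : ℝ}
  (G : Cells m κ w C) {Q : Set ℂ} {k0 : κ} {L δ : ℝ} {A : Finset ℂ} (P : PU G.O Q k0 L δ A)

/-- the glued row -/
noncomputable def glue (b : Fin m) (z : ℂ) : Fin m → ℂ := ∑ k, P.θ k z • G.S k z b

theorem hol_row (b : Fin m) (k : κ) : DifferentiableOn ℂ (fun z => G.S k z b) (G.O k) :=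
  differentiableOn_pi.2 fun c => G.hol k b c

theorem term_contDiff (b : Fin m) (k : κ) :
    ContDiff ℝ 1 (fun z => P.θ k z • G.S k z b) := by
  rw [contDiff_iff_contDiffAt]
  intro z
  by_cases hz : z ∈ tsupport (P.θ k)
  · have hO := P.supp k hz
    have h1 : ContDiffAt ℂ 1 (fun z => G.S k z b) z :=
      ((hol_row G b k).contDiffOn (G.isOpen k)).contDiffAt ((G.isOpen k).mem_nhds hO)
    exact ((P.smooth k).contDiffAt).smul (h1.restrict_scalars ℝ)
  · have h1 : (fun z => P.θ k z • G.S k z b) =ᶠ[𝓝 z] fun _ => 0 := by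
      filter_upwards [(isClosed_tsupport (P.θ k)).isOpen_compl.mem_nhds hz] with y hy
      rw [image_eq_zero_of_notMem_tsupport hy, zero_smul]
    exact contDiffAt_const.congr_of_eventuallyEq h1

theorem glue_contDiff (b : Fin m) : ContDiff ℝ 1 (glue G P b) := by
  unfold glue
  exact ContDiff.sum fun k _ => term_contDiff G P b k

theorem term_dbar (b : Fin m) (k : κ) (z : ℂ) :
    dbar (fun z => P.θ k z • G.S k z b) z = db (P.θ k) z • G.S k z b := by
  by_cases hz : z ∈ tsupport (P.θ k)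
  · have hO := P.supp k hz
    exact dbar_smul_holo ((P.smooth k).differentiable (by norm_num)).differentiableAt
      ((hol_row G b k).differentiableAt ((G.isOpen k).mem_nhds hO))
  · have h1 : (fun z => P.θ k z • G.S k z b) =ᶠ[𝓝 z] fun _ => 0 := by
      filter_upwards [(isClosed_tsupport (P.θ k)).isOpen_compl.mem_nhds hz] with y hy
      rw [image_eq_zero_of_notMem_tsupport hy, zero_smul]
    have h2 : P.θ k =ᶠ[𝓝 z] fun _ => 0 := by
      filter_upwards [(isClosed_tsupport (P.θ k)).isOpen_compl.mem_nhds hz] with y hy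
      exact image_eq_zero_of_notMem_tsupport hy
    rw [dbar_zero_of_eventually h1]
    unfold db
    rw [h2.fderiv_eq]
    simp

theorem glue_dbar (b : Fin m) (z : ℂ) :
    dbar (glue G P b) z = ∑ k, db (P.θ k) z • G.S k z b := by
  have hd : ∀ k ∈ (Finset.univ : Finset κ),
      DifferentiableAt ℝ (fun z => P.θ k z • G.S k z b) z := fun k _ =>
    ((term_contDiff G P b k).differentiable (by norm_num)).differentiableAt
  simp only [← term_dbar G P b]
  unfold dbar
  have h1 : fderiv ℝ (glue G P b) z = ∑ k, fderiv ℝ (fun z => P.θ k z • G.S k z b) z := by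
    unfold glue
    exact fderiv_fun_sum hd
  rw [h1]
  simp only [_root_.sum_apply, Finset.smul_sum, smul_add, Finset.sum_add_distrib]

theorem glue_coord_lt (b : Fin m) (z : ℂ) {i : Fin m} (hi : i < b) : glue G P b z i = 0 := by
  unfold glue
  rw [Finset.sum_apply]
  refine Finset.sum_eq_zero fun k _ => ?_
  by_cases hz : z ∈ G.O k
  · rw [Pi.smul_apply, (G.uni k z hz).1 b i hi, smul_zero]
  · have : P.θ k z = 0 := image_eq_zero_of_notMem_tsupport fun h => hz (P.supp k h)
    rw [this, zero_smul, Pi.zero_apply]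

theorem glue_coord_self (b : Fin m) (z : ℂ) : glue G P b z b = 1 := by
  unfold glue
  rw [Finset.sum_apply]
  have : ∀ k, (P.θ k z • G.S k z b) b = ((P.θ k z : ℝ) : ℂ) := by
    intro k
    by_cases hz : z ∈ G.O k
    · rw [Pi.smul_apply, (G.uni k z hz).2 b]
      simp
    · have : P.θ k z = 0 := image_eq_zero_of_notMem_tsupport fun h => hz (P.supp k h)
      rw [this]; simp
  simp only [this]
  rw [← Complex.ofReal_sum, P.sum_one]
  simp

theorem glue_node (b : Fin m) {a : ℂ} (ha : a ∈ A) : ∃ k, a ∈ G.O k ∧ glue G P b a = G.S k a b := by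
  obtain ⟨k, hk⟩ := P.node a ha
  refine ⟨k, ?_, ?_⟩
  · by_contra h
    have h1 : P.θ k a = 0 := image_eq_zero_of_notMem_tsupport fun h' => h (P.supp k h')
    have h2 := hk k
    rw [if_pos rfl, h1] at h2
    exact zero_ne_one h2
  · unfold glue
    rw [Finset.sum_eq_single k]
    · rw [hk k, if_pos rfl, one_smul]
    · intro k' _ hk'
      rw [hk k', if_neg hk', zero_smul]
    · intro h; exact absurd (Finset.mem_univ k) h

theorem glue_dbar_zero (b : Fin m) (z : ℂ) (h : ∀ k, fderiv ℝ (P.θ k) z = 0) :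
    dbar (glue G P b) z = 0 := by
  rw [glue_dbar]
  refine Finset.sum_eq_zero fun k _ => ?_
  have : db (P.θ k) z = 0 := by unfold db; rw [h k]; simp
  rw [this, zero_smul]

theorem N_dbar_le (hL : 0 ≤ L) (b : Fin m) (z : ℂ) :
    G.N z (dbar (glue G P b) z) ≤ Fintype.card κ * (L * (C * Real.exp (w b z))) := by
  have hC := G.C_nonneg b
  rw [glue_dbar]
  have h1 : G.N z (∑ k, db (P.θ k) z • G.S k z b) ≤ ∑ k, G.N z (db (P.θ k) z • G.S k z b) :=
    Finset.le_sum_of_subadditive (G.N z) (map_zero (G.N z)).le (map_add_le_add (G.N z)) _ _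
  refine h1.trans ?_
  have h2 : ∀ k ∈ (Finset.univ : Finset κ),
      G.N z (db (P.θ k) z • G.S k z b) ≤ L * (C * Real.exp (w b z)) := by
    intro k _
    by_cases hz : z ∈ G.O k
    · rw [map_smul_eq_mul]
      exact mul_le_mul ((norm_db_le _ _).trans (P.bound k z)) (G.N_row hz b) (apply_nonneg _ _) hL
    · have h0 : P.θ k =ᶠ[𝓝 z] fun _ => 0 := by
        have hz' : z ∉ tsupport (P.θ k) := fun h' => hz (P.supp k h')
        filter_upwards [(isClosed_tsupport (P.θ k)).isOpen_compl.mem_nhds hz'] with y hy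
        exact image_eq_zero_of_notMem_tsupport hy
      have : db (P.θ k) z = 0 := by
        unfold db
        rw [h0.fderiv_eq]
        simp
      rw [this, zero_smul, map_zero]
      positivity
  refine (Finset.sum_le_sum h2).trans_eq ?_
  rw [Finset.sum_const, Finset.card_univ, nsmul_eq_mul]

theorem glue_tendsto (b : Fin m) {c : Fin m → ℂ}
    (hc : Tendsto (fun z => G.S k0 z b) (cocompact ℂ) (𝓝 c)) :
    Tendsto (glue G P b) (cocompact ℂ) (𝓝 c) := by
  refine hc.congr' ?_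
  filter_upwards [P.inf] with z hz
  unfold glue
  rw [Finset.sum_eq_single k0]
  · rw [hz k0, if_pos rfl, one_smul]
  · intro k' _ hk'
    rw [hz k', if_neg hk', zero_smul]
  · intro h; exact absurd (Finset.mem_univ k0) h

theorem dbar_coord {φ : ℂ → Fin m → ℂ} {z : ℂ} (h : DifferentiableAt ℝ φ z) (i : Fin m) :
    dbar (fun z => φ z i) z = dbar φ z i := by
  have h1 : HasFDerivAt (fun z => φ z i)
      ((ContinuousLinearMap.proj (R := ℝ) (φ := fun _ : Fin m => ℂ) i).comp (fderiv ℝ φ z)) z :=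
    hasFDerivAt_pi'.1 h.hasFDerivAt i
  unfold dbar
  rw [h1.fderiv]
  simp

theorem continuous_dbar {φ : ℂ → Fin m → ℂ} (h : ContDiff ℝ 1 φ) : Continuous (dbar φ) := by
  have h1 : Continuous (fderiv ℝ φ) := h.continuous_fderiv (by norm_num)
  have h2 : Continuous fun z => fderiv ℝ φ z 1 := h1.clm_apply continuous_const
  have h3 : Continuous fun z => fderiv ℝ φ z Complex.I := h1.clm_apply continuous_const
  unfold dbar
  fun_prop

include P in
/-- **the Cauchy representation at every level** -/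
theorem Cells.cauchy (hL : 0 ≤ L) (hδ : 0 < δ) (hQ : IsCompact Q) {M : ℝ}
    (hM : (volume : Measure ℂ).real Q ≤ M) (b : Fin m) {c : Fin m → ℂ}
    (hc : Tendsto (fun z => G.S k0 z b) (cocompact ℂ) (𝓝 c)) :
    Cauchy G.N (w b) (max C (Fintype.card κ * L * C)) M δ b A := by
  set φ := glue G P b with hφ
  have hsm : ContDiff ℝ 1 φ := glue_contDiff G P b
  have hC := G.C_nonneg b
  set Q' : Set ℂ := Q \ ⋃ a ∈ A, Metric.ball a δ with hQ'
  have hball : MeasurableSet (⋃ a ∈ A, Metric.ball a δ) :=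
    Finset.measurableSet_biUnion A fun a _ => Metric.isOpen_ball.measurableSet
  have hmQ' : MeasurableSet Q' := hQ.isClosed.measurableSet.diff hball
  have hfinQ : volume Q < ⊤ := hQ.measure_lt_top
  have hfinQ' : volume Q' < ⊤ := lt_of_le_of_lt (measure_mono Set.sdiff_subset) hfinQ
  have hzero : ∀ z, z ∉ Q' → dbar φ z = 0 := by
    intro z hz
    refine glue_dbar_zero G P b z fun k => ?_
    by_cases hzQ : z ∈ Q
    · have h1 : z ∈ ⋃ a ∈ A, Metric.ball a δ := by
        by_contra h; exact hz ⟨hzQ, h⟩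
      obtain ⟨a, ha, hza⟩ := Set.mem_iUnion₂.1 h1
      exact P.sep k a ha z (by simpa [dist_eq_norm] using hza)
    · exact P.const_out k z hzQ
  have hcs : HasCompactSupport (dbar φ) :=
    HasCompactSupport.intro hQ fun z hz => hzero z fun h => hz h.1
  have hdiff : ∀ z, DifferentiableAt ℝ φ z := fun z =>
    (hsm.differentiable (by norm_num)).differentiableAt
  obtain ⟨B1, hB1⟩ := hQ.isBounded.exists_norm_le
  obtain ⟨B2, hB2⟩ := hQ.exists_bound_of_continuousOn (continuous_dbar hsm).continuousOn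
  have hpi : (0 : ℝ) < Real.pi := Real.pi_pos
  have hpi1 : (Real.pi)⁻¹ ≤ 1 := inv_le_one_of_one_le₀ (by linarith [Real.pi_gt_three])
  have hnpi : ‖(-((Real.pi : ℂ))⁻¹)‖ = (Real.pi)⁻¹ := by
    rw [norm_neg, norm_inv, Complex.norm_real, Real.norm_of_nonneg hpi.le]
  refine ⟨ℂ, inferInstance, volume.restrict Q', ⟨by rw [Measure.restrict_apply_univ]; exact hfinQ'⟩,
    id, fun x => (-((Real.pi : ℂ))⁻¹) • dbar φ x, fun z => φ z - Pi.single b 1,
    c - Pi.single b 1, max B1 (Real.pi⁻¹ * B2), ?_, measurable_id, ?_, ?_, ?_, ?_, ?_, ?_, ?_, ?_, ?_⟩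
  · rw [Measure.real, Measure.restrict_apply_univ]
    refine le_trans ?_ hM
    exact ENNReal.toReal_mono hfinQ.ne (measure_mono Set.sdiff_subset)
  · intro i
    have : Continuous fun x => ((-((Real.pi : ℂ))⁻¹) • dbar φ x) i := by
      have h1 := continuous_dbar hsm
      fun_prop
    exact this.measurable
  · rw [ae_restrict_iff' hmQ']
    exact Eventually.of_forall fun x hx => (hB1 x hx.1).trans (le_max_left _ _)
  · rw [ae_restrict_iff' hmQ']
    refine Eventually.of_forall fun x hx i => ?_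
    refine le_trans ?_ (le_max_right _ _)
    beta_reduce
    rw [Pi.smul_apply, norm_smul, hnpi]
    exact mul_le_mul_of_nonneg_left ((norm_le_pi_norm _ i).trans (hB2 x hx.1))
      (inv_nonneg.2 hpi.le)
  · intro x i hi
    have h1 : dbar φ x i = 0 := by
      rw [← dbar_coord (hdiff x) i]
      rcases lt_or_eq_of_le hi with h | h
      · have : (fun z => φ z i) = fun _ => (0 : ℂ) := by
          funext z; exact glue_coord_lt G P b z h
        rw [this]
        unfold dbar
        simp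
      · subst h
        have : (fun z => φ z i) = fun _ => (1 : ℂ) := by
          funext z; exact glue_coord_self G P i z
        rw [this]
        unfold dbar
        simp
    beta_reduce
    rw [Pi.smul_apply, h1, smul_zero]
  · intro z _ i hi
    beta_reduce
    rw [Pi.sub_apply]
    rcases lt_or_eq_of_le hi with h | h
    · rw [hφ, glue_coord_lt G P b z h, Pi.single_eq_of_ne h.ne, sub_zero]
    · subst h
      rw [hφ, glue_coord_self, Pi.single_eq_same, sub_self]
  · intro z _ i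
    have hp := pompeiu (fun z => φ z i) (contDiff_pi.1 hsm i) (c i)
      (tendsto_pi_nhds.1 (glue_tendsto G P b hc) i)
      (HasCompactSupport.intro hQ fun z hz => by
        rw [dbar_coord (hdiff z) i, hzero z fun h => hz h.1]; rfl) z
    beta_reduce at hp ⊢
    rw [Pi.sub_apply, Pi.sub_apply, hp]
    have h1 : ∫ ξ : ℂ, (ξ - z)⁻¹ • (-(Real.pi : ℂ)⁻¹ • dbar (fun z => φ z i) ξ) =
        ∫ x in Q', ((-((Real.pi : ℂ))⁻¹) • dbar φ x) i / (id x - z) := by
      rw [← setIntegral_eq_integral_of_forall_compl_eq_zero (s := Q')]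
      · refine integral_congr_ae (Eventually.of_forall fun x => ?_)
        simp only [dbar_coord (hdiff x) i, smul_eq_mul, Pi.smul_apply, id]
        rw [div_eq_mul_inv]; ring
      · intro x hx
        rw [dbar_coord (hdiff x) i, hzero x hx]
        simp
    rw [h1]
    ring
  · intro z hz
    obtain ⟨k, hk, hk2⟩ := glue_node G P b hz
    have : (Pi.single b 1 + (φ z - Pi.single b 1) : Fin m → ℂ) = G.S k z b := by
      rw [add_sub_cancel, hφ, hk2]
    rw [this]
    exact (G.N_row hk b).trans (mul_le_mul_of_nonneg_right (le_max_left _ _) (Real.exp_pos _).le)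
  · refine Eventually.of_forall fun x => ?_
    rw [map_smul_eq_mul, hnpi]
    have h1 := N_dbar_le G P hL b x
    have h2 : (0 : ℝ) ≤ Fintype.card κ * (L * (C * Real.exp (w b x))) := by positivity
    calc (Real.pi)⁻¹ * G.N (id x) (dbar φ x)
        ≤ 1 * (Fintype.card κ * (L * (C * Real.exp (w b x)))) :=
          mul_le_mul hpi1 h1 (apply_nonneg _ _) zero_le_one
      _ = (Fintype.card κ * L * C) * Real.exp (w b x) := by ring
      _ ≤ _ := mul_le_mul_of_nonneg_right (le_max_right _ _) (Real.exp_pos _).le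
  · rw [ae_restrict_iff' hmQ']
    refine Eventually.of_forall fun x hx a ha => ?_
    by_contra h
    exact hx.2 (Set.mem_iUnion₂.2 ⟨a, ha, by simpa [dist_eq_norm] using not_le.1 h⟩)

end main

/-- **N5, final form**: cells + partitions of unity + energy give the hypotheses of Theorem N. -/
theorem Cells.hyp {m : ℕ} {κ : Type} [Fintype κ] [DecidableEq κ] {w : Fin m → ℂ → ℝ} {C : ℝ}
    (G : Cells m κ w C) {Q : Set ℂ} (hQ : IsCompact Q) {M : ℝ}
    (hM : (volume : Measure ℂ).real Q ≤ M) {k0 : κ}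
    (hc : ∀ b, ∃ c : Fin m → ℂ, Tendsto (fun z => G.S k0 z b) (cocompact ℂ) (𝓝 c))
    {K : ℕ} {L δ : ℝ} (hL : 0 ≤ L) (hδ : 0 < δ)
    (hPU : ∀ A : Finset ℂ, A.card ≤ K → Nonempty (PU G.O Q k0 L δ A))
    {Dg : Fin m → ℕ} (hD : ∀ b c : Fin m, b ≤ c → Dg c ≤ Dg b) {E : Fin m → ℝ}
    (hE : ∀ b, H352.Energy (w b) (Dg b) (E b) K δ) :
    Hyp Dg G.N w E K (max C (Fintype.card κ * L * C)) M δ where
  n1 := G.n1
  n2 := by
    intro b A hA
    obtain ⟨P⟩ := hPU A hA
    obtain ⟨c, hc⟩ := hc b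
    exact Cells.cauchy G P hL hδ hQ hM b hc
  n3 := hE
  mono := hD

end Vale.Agent.P030.H152
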