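import Mathlib

/-!
# P030, THEOREM T, one elimination step (algebra)

Columns: `p + D` nodes `a j` (first block `a j ^ k`, `k < D`, other rows arbitrary) and further
columns whose first block vanishes.
-/

open Matrix Polynomial

namespace Vale.Agent.P030.H152

section reindex
variable {n m : Type*} [Fintype n] [DecidableEq n] [Fintype m] [DecidableEq m]

theorem norm_det_submatrix (A : Matrix m m ℂ) (e₁ e₂ : n ≃ m) :
    ‖(A.submatrix e₁ e₂).det‖ = ‖A.det‖ := by
  have h : A.submatrix e₁ e₂ = (A.submatrix e₁ e₁).submatrix id (e₂.trans e₁.symm) := by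
    ext i j; simp
  rw [h, Matrix.det_permute', Matrix.det_submatrix_equiv_self, norm_mul]
  rcases Int.units_eq_one_or (Equiv.Perm.sign (e₂.trans e₁.symm)) with h | h <;> simp [h]

end reindex

/-- antitriangular matrices with ones on the antidiagonal -/
theorem norm_det_anti {n : ℕ} (H : Matrix (Fin n) (Fin n) ℂ)
    (h0 : ∀ i k : Fin n, (i : ℕ) + k + 1 < n → H i k = 0)
    (h1 : ∀ i k : Fin n, (i : ℕ) + k + 1 = n → H i k = 1) : ‖H.det‖ = 1 := by
  have h2 : ‖(H.submatrix (Equiv.refl _) Fin.revPerm).det‖ = ‖H.det‖ :=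
    norm_det_submatrix H (Equiv.refl _) Fin.revPerm
  rw [← h2]
  have h3 : (H.submatrix (Equiv.refl _) Fin.revPerm).BlockTriangular OrderDual.toDual := by
    intro i j hij
    have hij' : i < j := hij
    have : ((i : ℕ)) < j := hij'
    simp only [submatrix_apply, Equiv.refl_apply, Fin.revPerm_apply]
    apply h0
    rw [Fin.val_rev]
    omega
  rw [Matrix.det_of_isLowerTriangular _ h3]
  rw [Finset.prod_eq_one, norm_one]
  intro i _
  simp only [submatrix_apply, Equiv.refl_apply, Fin.revPerm_apply]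
  apply h1
  rw [Fin.val_rev]
  omega

/-- the weights `1 / ω'(a_j)` -/
noncomputable def wt {n : ℕ} (a : Fin n → ℂ) (j : Fin n) : ℂ :=
  Lagrange.nodalWeight Finset.univ a j

theorem sum_wt_eq {n : ℕ} {a : Fin n → ℂ} (ha : Function.Injective a) {i : ℕ} (hi : i < n) :
    ∑ j, a j ^ i * wt a j = if i + 1 = n then 1 else 0 := by
  have hdeg : (X ^ i : ℂ[X]).degree < (Finset.univ : Finset (Fin n)).card := by
    rw [degree_X_pow, Finset.card_univ, Fintype.card_fin]
    exact_mod_cast hi
  have h := Lagrange.coeff_eq_sum (s := Finset.univ) (v := a) ha.injOn hdeg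
  rw [Finset.card_univ, Fintype.card_fin, coeff_X_pow] at h
  have h2 : ∑ j, a j ^ i * wt a j = if n - 1 = i then 1 else 0 := by
    rw [h]
    refine Finset.sum_congr rfl fun j _ => ?_
    rw [eval_pow, eval_X, div_eq_mul_inv, wt, Lagrange.nodalWeight, Finset.prod_inv_distrib]
  rw [h2]
  congr 1
  apply propext
  omega

theorem sum_wt_inv {n : ℕ} {a : Fin n → ℂ} (ha : Function.Injective a) {i : ℕ} (hi : i < n)
    {x : ℂ} (hx : ∀ j, x ≠ a j) :
    ∑ j, a j ^ i * wt a j * (x - a j)⁻¹ = x ^ i / ∏ j, (x - a j) := by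
  have hdeg : (X ^ i : ℂ[X]).degree < (Finset.univ : Finset (Fin n)).card := by
    rw [degree_X_pow, Finset.card_univ, Fintype.card_fin]
    exact_mod_cast hi
  have h := Lagrange.eq_interpolate (s := Finset.univ) (v := a) ha.injOn hdeg
  have h2 := Lagrange.eval_interpolate_not_at_node (s := Finset.univ) (v := a)
    (fun j => eval (a j) (X ^ i : ℂ[X])) (fun j _ => hx j)
  rw [← h] at h2
  simp only [eval_pow, eval_X, Lagrange.eval_nodal] at h2
  have hne : ∏ j, (x - a j) ≠ 0 := Finset.prod_ne_zero_iff.2 fun j _ => sub_ne_zero.2 (hx j)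
  rw [h2, mul_div_cancel_left₀ _ hne]
  refine Finset.sum_congr rfl fun j _ => ?_
  rw [wt]; ring

theorem norm_det_wt {n : ℕ} {a : Fin n → ℂ} (ha : Function.Injective a) :
    ‖(vandermonde a).det‖ * ‖(Matrix.of fun j k : Fin n => a j ^ (k : ℕ) * wt a j).det‖ = 1 := by
  rw [← norm_mul, ← Matrix.det_transpose (vandermonde a), ← Matrix.det_mul]
  have h : ∀ i k : Fin n, ((vandermonde a)ᵀ * (Matrix.of fun j k : Fin n =>
      a j ^ (k : ℕ) * wt a j)) i k = ∑ j, a j ^ ((i : ℕ) + k) * wt a j := by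
    intro i k
    rw [Matrix.mul_apply]
    refine Finset.sum_congr rfl fun j _ => ?_
    simp only [transpose_apply, vandermonde_apply, of_apply]
    rw [pow_add]; ring
  apply norm_det_anti
  · intro i k hik
    rw [h, sum_wt_eq ha (by omega), if_neg (by omega)]
  · intro i k hik
    rw [h, sum_wt_eq ha (by omega), if_pos (by omega)]

section elim
variable {p D : ℕ} {ρ R : Type*} [Fintype ρ] [DecidableEq ρ] [Fintype R] [DecidableEq R]

/-- the matrix before the elimination: rows `Fin D ⊕ R` -/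
def bigM (a : Fin (p + D) → ℂ) (F : Fin (p + D) → R → ℂ) (h : ρ → R → ℂ) :
    Matrix (Fin D ⊕ R) (Fin (p + D) ⊕ ρ) ℂ :=
  Matrix.of fun i j => Sum.elim
    (fun k : Fin D => Sum.elim (fun j => a j ^ (k : ℕ)) (fun _ => 0) j)
    (fun r => Sum.elim (fun j => F j r) (fun t => h t r) j) i

/-- the matrix after the elimination: rows `R` -/
noncomputable def smallM (a : Fin (p + D) → ℂ) (F : Fin (p + D) → R → ℂ) (h : ρ → R → ℂ) :
    Matrix R (Fin p ⊕ ρ) ℂ :=
  Matrix.of fun r j => Sum.elim (fun k : Fin p => ∑ l, a l ^ (k : ℕ) * wt a l * F l r)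
    (fun t => h t r) j

theorem elim_det (e : (Fin (p + D) ⊕ ρ) ≃ (Fin D ⊕ R)) (er : (Fin p ⊕ ρ) ≃ R)
    {a : Fin (p + D) → ℂ} (ha : Function.Injective a) (F : Fin (p + D) → R → ℂ)
    (h : ρ → R → ℂ) :
    ‖((bigM a F h).submatrix e id).det‖ =
      ‖(vandermonde a).det‖ * ‖((smallM a F h).submatrix er id).det‖ := by
  set B : Matrix (Fin (p + D)) (Fin (p + D)) ℂ := Matrix.of fun j k => a j ^ (k : ℕ) * wt a j
    with hB
  set Q : Matrix (Fin (p + D) ⊕ ρ) (Fin (p + D) ⊕ ρ) ℂ := fromBlocks B 0 0 1 with hQ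
  have hdQ : Q.det = B.det := by
    rw [hQ, det_fromBlocks_zero₁₂, det_one, mul_one]
  -- the product
  set M' := (bigM a F h).submatrix e id * Q with hM'
  have hdM' : M'.det = ((bigM a F h).submatrix e id).det * B.det := by
    rw [hM', det_mul, hdQ]
  -- entries of the product
  have hent : M' = ((bigM a F h) * Q).submatrix e id := by
    rw [hM']
    ext i j
    simp [Matrix.mul_apply]
  -- reorder
  set ec : (Fin D ⊕ (Fin p ⊕ ρ)) ≃ (Fin (p + D) ⊕ ρ) :=
    ((Equiv.sumAssoc (Fin D) (Fin p) ρ).symm.trans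
      (Equiv.sumCongr ((Equiv.sumComm _ _).trans finSumFinEquiv) (Equiv.refl ρ))) with hec
  set err : (Fin D ⊕ (Fin p ⊕ ρ)) ≃ (Fin D ⊕ R) := Equiv.sumCongr (Equiv.refl _) er with herr
  have hsub : (((bigM a F h) * Q).submatrix err ec) =
      fromBlocks (Matrix.of fun i k : Fin D => ∑ l, a l ^ ((i : ℕ) + (p + k)) * wt a l) 0
        (Matrix.of fun (r : Fin p ⊕ ρ) (k : Fin D) =>
          ∑ l, F l (er r) * (a l ^ (p + (k : ℕ)) * wt a l))
        ((smallM a F h).submatrix er id) := by
    ext i j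
    rcases i with i | i <;> rcases j with j | (j | j)
    · simp [hec, herr, hQ, hB, bigM, Matrix.mul_apply, Fintype.sum_sum_type, pow_add, mul_assoc]
    · simp only [hec, herr, hQ, hB, bigM, submatrix_apply, Matrix.mul_apply, Fintype.sum_sum_type,
        Equiv.sumCongr_apply, Sum.map_inl, Equiv.refl_apply, Equiv.coe_trans, Function.comp_apply,
        Equiv.sumAssoc_symm_apply_inr_inl, Equiv.sumComm_apply, Sum.swap_inr,
        finSumFinEquiv_apply_left, of_apply, Sum.elim_inl, Sum.elim_inr, fromBlocks_apply₁₁,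
        fromBlocks_apply₂₁, Fin.val_castAdd, zero_mul, Finset.sum_const_zero, add_zero,
        fromBlocks_apply₁₂, Matrix.zero_apply]
      have hh : ∀ l, a l ^ (i : ℕ) * (a l ^ (j : ℕ) * wt a l) = a l ^ ((i : ℕ) + j) * wt a l := by
        intro l; rw [pow_add]; ring
      simp only [hh]
      rw [sum_wt_eq ha (by omega), if_neg (by omega)]
    · simp [hec, herr, hQ, hB, bigM, Matrix.mul_apply, Fintype.sum_sum_type]
    · simp [hec, herr, hQ, hB, bigM, Matrix.mul_apply, Fintype.sum_sum_type]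
    · simp only [hec, herr, hQ, hB, bigM, smallM, submatrix_apply, Matrix.mul_apply,
        Fintype.sum_sum_type,
        Equiv.sumCongr_apply, Sum.map_inl, Sum.map_inr, Equiv.refl_apply, Equiv.coe_trans,
        Function.comp_apply,
        Equiv.sumAssoc_symm_apply_inr_inl, Equiv.sumComm_apply, Sum.swap_inr,
        finSumFinEquiv_apply_left, of_apply, Sum.elim_inl, Sum.elim_inr, fromBlocks_apply₁₁,
        fromBlocks_apply₂₁, Fin.val_castAdd, Matrix.zero_apply, mul_zero,
        Finset.sum_const_zero, add_zero, fromBlocks_apply₂₂, id_eq]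
      refine Finset.sum_congr rfl fun l _ => ?_
      ring
    · simp [hec, herr, hQ, hB, bigM, smallM, Matrix.mul_apply, Fintype.sum_sum_type,
        Matrix.one_apply]
  have hdet : ‖M'.det‖ = ‖((smallM a F h).submatrix er id).det‖ := by
    have h1 : M' = (((bigM a F h) * Q).submatrix err ec).submatrix (e.trans err.symm) ec.symm := by
      rw [hent]; ext i j; simp
    rw [h1, norm_det_submatrix, hsub, det_fromBlocks_zero₁₂, norm_mul]
    rw [norm_det_anti, one_mul]
    · intro i k hik
      rw [of_apply, sum_wt_eq ha (by omega), if_neg (by omega)]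
    · intro i k hik
      rw [of_apply, sum_wt_eq ha (by omega), if_pos (by omega)]
  have hw := norm_det_wt ha
  have hw' : ‖(vandermonde a).det‖ * ‖B.det‖ = 1 := hw
  rw [← hdet, hdM', norm_mul]
  calc ‖((bigM a F h).submatrix e id).det‖
      = ‖((bigM a F h).submatrix e id).det‖ * (‖(vandermonde a).det‖ * ‖B.det‖) := by
        rw [hw', mul_one]
    _ = _ := by ring

end elim

end Vale.Agent.P030.H152
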