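import Vale.Agent.P030.H352.ThmN

/-!
# P030: Theorem N (helper352) for ONE family of seminorms on `ℂ^m`

`Cauchy` is the representation at level `b` for a finite set; `Hyp` collects the hypotheses for
all levels; `Hyp.flag` produces 352's `Flag`, `Hyp.bound` the determinant bound.
-/

open Matrix MeasureTheory Finset
open Vale.Agent.P030.H352 (Energy Flag IsRep RepData adet ptM theoremN)

namespace Vale.Agent.P030.H152

/-- a vector with first coordinate zero -/
def consZ (m : ℕ) : (Fin m → ℂ) →ₗ[ℂ] (Fin (m + 1) → ℂ) where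
  toFun v := Fin.cons 0 v
  map_add' u v := by
    funext i
    refine Fin.cases ?_ (fun j => ?_) i <;> simp
  map_smul' c v := by
    funext i
    refine Fin.cases ?_ (fun j => ?_) i <;> simp

@[simp] theorem consZ_zero {m : ℕ} (v : Fin m → ℂ) : consZ m v 0 = 0 := rfl
@[simp] theorem consZ_succ {m : ℕ} (v : Fin m → ℂ) (i : Fin m) : consZ m v i.succ = v i := rfl

theorem consZ_tail {m : ℕ} (v : Fin (m + 1) → ℂ) (h : v 0 = 0) :
    consZ m (fun i => v i.succ) = v := by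
  funext i
  refine Fin.cases ?_ (fun j => ?_) i
  · simp [h]
  · simp

/-- the Cauchy representation of the frame at level `b` for the finite set `A` -/
def Cauchy {m : ℕ} (N : ℂ → Seminorm ℂ (Fin m → ℂ)) (w : ℂ → ℝ) (C M δ : ℝ) (b : Fin m)
    (A : Finset ℂ) : Prop :=
  ∃ (X : Type) (_ : MeasurableSpace X) (μ : Measure X) (_ : IsFiniteMeasure μ)
    (ξ : X → ℂ) (J : X → Fin m → ℂ) (F : ℂ → Fin m → ℂ) (c : Fin m → ℂ) (B : ℝ),
    μ.real Set.univ ≤ M ∧ Measurable ξ ∧ (∀ i, Measurable fun x => J x i) ∧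
    (∀ᵐ x ∂μ, ‖ξ x‖ ≤ B) ∧ (∀ᵐ x ∂μ, ∀ i, ‖J x i‖ ≤ B) ∧
    (∀ x, ∀ i ≤ b, J x i = 0) ∧ (∀ z ∈ A, ∀ i ≤ b, F z i = 0) ∧
    (∀ z ∈ A, ∀ i, F z i = c i + ∫ x, J x i / (ξ x - z) ∂μ) ∧
    (∀ z ∈ A, N z (Pi.single b 1 + F z) ≤ C * Real.exp (w z)) ∧
    (∀ᵐ x ∂μ, N (ξ x) (J x) ≤ C * Real.exp (w (ξ x))) ∧
    (∀ᵐ x ∂μ, ∀ z ∈ A, δ ≤ ‖ξ x - z‖)

theorem Cauchy.mono {m : ℕ} {N : ℂ → Seminorm ℂ (Fin m → ℂ)} {w : ℂ → ℝ} {C C' M M' δ δ' : ℝ}
    {b : Fin m} {A : Finset ℂ} (h : Cauchy N w C M δ b A) (hC : C ≤ C') (hM : M ≤ M')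
    (hδ : δ' ≤ δ) : Cauchy N w C' M' δ' b A := by
  obtain ⟨X, mX, μ, hμ, ξ, J, F, c, B, h1, h2, h3, h4, h5, h6, h7, h8, h9, h10, h11⟩ := h
  refine ⟨X, mX, μ, hμ, ξ, J, F, c, B, h1.trans hM, h2, h3, h4, h5, h6, h7, h8, ?_, ?_, ?_⟩
  · exact fun z hz => (h9 z hz).trans (mul_le_mul_of_nonneg_right hC (Real.exp_pos _).le)
  · filter_upwards [h10] with x hx
    exact hx.trans (mul_le_mul_of_nonneg_right hC (Real.exp_pos _).le)
  · filter_upwards [h11] with x hx z hz using hδ.trans (hx z hz)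

/-- the hypotheses of Theorem N for one family of seminorms -/
structure Hyp {m : ℕ} (Dg : Fin m → ℕ) (N : ℂ → Seminorm ℂ (Fin m → ℂ)) (w : Fin m → ℂ → ℝ)
    (E : Fin m → ℝ) (K : ℕ) (C M δ : ℝ) : Prop where
  n1 : ∀ z v b, (∀ c < b, v c = 0) → ‖v b‖ * Real.exp (w b z) ≤ N z v
  n2 : ∀ b, ∀ A : Finset ℂ, A.card ≤ K → Cauchy N (w b) C M δ b A
  n3 : ∀ b, Energy (w b) (Dg b) (E b) K δ
  mono : ∀ b c : Fin m, b ≤ c → Dg c ≤ Dg b

/-- the hypotheses pass to the tail -/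
theorem Hyp.tail {m : ℕ} {Dg : Fin (m + 1) → ℕ} {N : ℂ → Seminorm ℂ (Fin (m + 1) → ℂ)}
    {w : Fin (m + 1) → ℂ → ℝ} {E : Fin (m + 1) → ℝ} {K : ℕ} {C M δ : ℝ}
    (h : Hyp Dg N w E K C M δ) :
    Hyp (fun b => Dg b.succ) (fun z => (N z).comp (consZ m)) (fun b => w b.succ)
      (fun b => E b.succ) K C M δ where
  n1 := by
    intro z v b hv
    have := h.n1 z (consZ m v) b.succ (by
      intro c hc
      induction c using Fin.cases with
      | zero => rfl
      | succ c => exact hv c (Fin.succ_lt_succ_iff.1 hc))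
    simpa using this
  n2 := by
    intro b A hA
    obtain ⟨X, mX, μ, hμ, ξ, J, F, c, B, h1, h2, h3, h4, h5, h6, h7, h8, h9, h10, h11⟩ :=
      h.n2 b.succ A hA
    refine ⟨X, mX, μ, hμ, ξ, fun x i => J x i.succ, fun z i => F z i.succ, fun i => c i.succ, B,
      h1, h2, fun i => h3 i.succ, h4, ?_, ?_, ?_, ?_, ?_, ?_, h11⟩
    · filter_upwards [h5] with x hx i using hx i.succ
    · exact fun x i hi => h6 x i.succ (Fin.succ_le_succ_iff.2 hi)
    · exact fun z hz i hi => h7 z hz i.succ (Fin.succ_le_succ_iff.2 hi)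
    · exact fun z hz i => h8 z hz i.succ
    · intro z hz
      have h0 : consZ m (Pi.single b 1 + fun i => F z i.succ) = Pi.single b.succ 1 + F z := by
        rw [map_add, consZ_tail _ (h7 z hz 0 (Fin.zero_le _))]
        congr 1
        funext i
        refine Fin.cases ?_ (fun j => ?_) i
        · simp [Fin.ext_iff]
        · simp [Pi.single_apply]
      rw [Seminorm.comp_apply, h0]
      exact h9 z hz
    · filter_upwards [h10] with x hx
      rw [Seminorm.comp_apply, consZ_tail _ (h6 x 0 (Fin.zero_le _))]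
      exact hx
  n3 := fun b => h.n3 b.succ
  mono := fun b c hbc => h.mono b.succ c.succ (Fin.succ_le_succ_iff.2 hbc)

/-- `Hyp` gives helper352's `Flag` -/
theorem Hyp.flag {K : ℕ} {C M δ : ℝ} (hC : 0 ≤ C) : ∀ {m : ℕ} {Dg : Fin m → ℕ}
    {N : ℂ → Seminorm ℂ (Fin m → ℂ)} {w : Fin m → ℂ → ℝ} {E : Fin m → ℝ},
    Hyp Dg N w E K C M δ → Flag K (1 + C) M δ m Dg (fun z v => N z v) (∑ b, E b) := by
  intro m
  induction m with
  | zero =>
    intro Dg N w E _
    rw [Fin.sum_univ_zero]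
    exact Flag.nil Dg _ fun z v => apply_nonneg _ _
  | succ m ih =>
    intro Dg N w E h
    rw [Fin.sum_univ_succ]
    refine Flag.cons (N' := fun z v => (N z).comp (consZ m) v) (w := w 0)
      (fun z v => apply_nonneg _ _) (ih h.tail) (fun b => h.mono 0 b.succ (Fin.zero_le _))
      (h.n3 0) (fun z v => h.n1 z v 0 fun c hc => absurd hc (Fin.not_lt_zero c)) ?_
    intro A hA
    obtain ⟨X, mX, μ, hμ, ξ, J, F, c, B, h1, h2, h3, h4, h5, h6, h7, h8, h9, h10, h11⟩ :=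
      h.n2 0 A hA
    refine ⟨{ X := X, μ := μ, ξ := ξ, J := fun x i => J x i.succ, F := fun z i => F z i.succ,
              c := fun i => c i.succ }, ?_⟩
    constructor
    · exact hμ
    · exact h1
    · exact h2.aestronglyMeasurable
    · exact ⟨B, h4⟩
    · exact fun b => (h3 b.succ).aestronglyMeasurable
    · exact ⟨B, by filter_upwards [h5] with x hx i using hx i.succ⟩
    · exact fun z hz b => h8 z hz b.succ
    · exact h11
    · filter_upwards [h10] with x hx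
      beta_reduce
      rw [Seminorm.comp_apply, consZ_tail _ (h6 x 0 le_rfl)]
      exact hx.trans (mul_le_mul_of_nonneg_right (by linarith) (Real.exp_pos _).le)
    · intro z hz v
      beta_reduce
      rw [Seminorm.comp_apply]
      have h0 : consZ m (Fin.tail v - v 0 • fun i => F z i.succ) =
          v - v 0 • (Pi.single 0 1 + F z) := by
        funext i
        refine Fin.cases ?_ (fun j => ?_) i
        · rw [consZ_zero]
          simp [h7 z hz 0 le_rfl]
        · rw [consZ_succ]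
          simp [Fin.tail]
      rw [h0]
      have h12 := h.n1 z v 0 fun c hc => absurd hc (Fin.not_lt_zero c)
      calc N z (v - v 0 • (Pi.single 0 1 + F z))
          ≤ N z v + N z (v 0 • (Pi.single 0 1 + F z)) := map_sub_le_add _ _ _
        _ = N z v + ‖v 0‖ * N z (Pi.single 0 1 + F z) := by rw [map_smul_eq_mul]
        _ ≤ N z v + ‖v 0‖ * (C * Real.exp (w 0 z)) := by
            have := mul_le_mul_of_nonneg_left (h9 z hz) (norm_nonneg (v 0))
            linarith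
        _ ≤ (1 + C) * N z v := by
            have := mul_le_mul_of_nonneg_left h12 hC
            nlinarith [this]

/-- **the determinant bound** -/
theorem Hyp.bound {K : ℕ} {C M δ : ℝ} (hδ : 0 < δ) (hC : 0 ≤ C) (hM : 1 ≤ M) {m : ℕ}
    {Dg : Fin m → ℕ} {N : ℂ → Seminorm ℂ (Fin m → ℂ)} {w : Fin m → ℂ → ℝ} {E : Fin m → ℝ}
    (h : Hyp Dg N w E K C M δ) (ι : Type) [Fintype ι] [DecidableEq ι]
    (hcard : Fintype.card ι = Fintype.card (Σ b, Fin (Dg b))) (hK : Fintype.card ι ≤ K)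
    (a : ι → ℂ) (v : ι → Fin m → ℂ) :
    adet (ptM Dg a v) ≤ ((2 * (1 + C) ^ 2 * M) ^ K) ^ m * Real.exp (-∑ b, E b) *
      ∏ i, N (a i) (v i) :=
  theoremN hδ (by linarith) hM (h.flag hC) ι hcard hK a v

end Vale.Agent.P030.H152
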